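import Vale.Agent.P246.T.MX
import Vale.Agent.P246.T.YDb
import Vale.Agent.P246.T.MS
import Vale.Agent.P246.T.CL
import Vale.Agent.P246.T.FM
import Vale.Agent.P246.R2.H429.Defs4
import Mathlib.Analysis.Normed.Module.Connected

/-! # P246, row TW4: the chains of the covering after attaching two-spheres -/

set_option linter.all false

namespace Vale.Agent.P246.R2.H247W

open Topology Metric Set Vale.Agent.P246 Vale.Agent.P246.T Vale.Agent.P246.H429

/-! ## Algebra -/

section Alg

variable {R M : Type} [Ring R] [AddCommGroup M] [Module R M]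

/-- one more generator -/
theorem rank_sup {P A : Submodule R M} (hPA : P ≤ A) {z : M} (hz : ∀ r : R, r • z ∈ A → r = 0)
    {m : ℕ} (hP : Nonempty (P ≃ₗ[R] (Fin m → R))) :
    Nonempty ((P ⊔ Submodule.span R {z} : Submodule R M) ≃ₗ[R] (Fin (m + 1) → R)) := by
  obtain ⟨u⟩ := hP
  let f : (P × R) →ₗ[R] M := P.subtype.coprod (LinearMap.toSpanSingleton R M z)
  have hf : Function.Injective f := by
    rw [injective_iff_map_eq_zero]
    rintro ⟨x, r⟩ h
    have h1 : (x : M) + r • z = 0 := h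
    have hr : r = 0 := hz r (by
      rw [eq_neg_of_add_eq_zero_right h1]
      exact Submodule.neg_mem _ (hPA x.2))
    subst hr
    rw [zero_smul, add_zero] at h1
    exact Prod.ext (Subtype.ext h1) rfl
  have hrange : LinearMap.range f = P ⊔ Submodule.span R {z} := by
    rw [LinearMap.range_coprod, Submodule.range_subtype, LinearMap.range_toSpanSingleton]
  have e := (LinearEquiv.ofInjective f hf).trans (LinearEquiv.ofEq _ _ hrange)
  exact ⟨e.symm.trans (((LinearEquiv.prodCongr u (LinearEquiv.refl R R)).trans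
    (LinearEquiv.prodComm R _ _)).trans (Fin.consLinearEquiv R (fun _ : Fin (m + 1) => R)))⟩

theorem disj_sup {P Z A : Submodule R M} (hPA : P ≤ A) (hZA : Z ≤ A) {z : M}
    (hz : ∀ r : R, r • z ∈ A → r = 0) (h : Disjoint P Z) :
    Disjoint P (Z ⊔ Submodule.span R {z}) := by
  rw [Submodule.disjoint_def] at h ⊢
  intro x hx hx'
  obtain ⟨y, hy, w, hw, rfl⟩ := Submodule.mem_sup.1 hx'
  obtain ⟨r, rfl⟩ := Submodule.mem_span_singleton.1 hw
  have hr : r = 0 := hz r (by
    have e : r • z = (y + r • z) - y := by abel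
    rw [e]
    exact Submodule.sub_mem _ (hPA hx) (hZA hy))
  subst hr
  rw [zero_smul, add_zero] at hx ⊢
  exact h y hx hy

end Alg

/-! ## Topology -/

theorem preconn : PreconnectedSpace (bdk 2) := by
  have h1 : IsPreconnected (sphere (0 : Fin 2 → ℝ) 1) := by
    refine isPreconnected_sphere ?_ 0 1
    rw [rank_fin_fun]
    exact_mod_cast one_lt_two
  have h2 : PreconnectedSpace (sphere (0 : Fin 2 → ℝ) 1) := Subtype.preconnectedSpace h1
  let f : sphere (0 : Fin 2 → ℝ) 1 → bdk 2 := fun x =>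
    ⟨⟨x.1, by rw [mem_closedBall, dist_zero_right]; exact (mem_sphere_zero_iff_norm.1 x.2).le⟩,
      mem_sphere_zero_iff_norm.1 x.2⟩
  have hf : Continuous f := by
    refine Continuous.subtype_mk (Continuous.subtype_mk continuous_subtype_val _) _
  have hs : Function.Surjective f := fun y =>
    ⟨⟨y.1.1, mem_sphere_zero_iff_norm.2 y.2⟩, rfl⟩
  exact ⟨by rw [← hs.range_eq]; exact isPreconnected_range hf⟩

variable {G W F : Type} [Group G] [TopologicalSpace W] [T2Space W]
  [TopologicalSpace F] [MulAction G F] [ContinuousConstSMul G F] {q : C(F, W)}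

/-- a lift of a map which is constant on the boundary is constant on the boundary -/
theorem lift_const (hq : IsQuotientCoveringMap q G) {Φ : C(Dk 2, W)} {a : W}
    (hΦ : ∀ z : Dk 2, ‖(z : Fin 2 → ℝ)‖ = 1 → Φ z = a) {Ψ : C(Dk 2, F)}
    (hΨ : ∀ x, q (Ψ x) = Φ x) : ∃ e : F, ∀ x ∈ bdk 2, Ψ x = e := by
  have := preconn
  have x0 : bdk 2 := ⟨⟨fun _ => 1, by
    rw [mem_closedBall, dist_zero_right, pi_norm_le_iff_of_nonneg zero_le_one]
    intro i
    simp⟩, by
    change ‖(fun _ : Fin 2 => (1 : ℝ))‖ = 1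
    simp⟩
  refine ⟨Ψ x0.1, fun x hx => ?_⟩
  have h1 := hq.isCoveringMap.eq_of_comp_eq (A := bdk 2)
    (g₁ := fun y => Ψ y.1) (g₂ := fun _ => Ψ x0.1)
    (Ψ.continuous.comp continuous_subtype_val) continuous_const (by
      funext y
      change q (Ψ y.1) = q (Ψ x0.1)
      rw [hΨ, hΨ, hΦ _ y.2, hΦ _ x0.2]) x0 rfl
  exact congrFun h1 ⟨x, hx⟩

theorem bd_zero {Ψ : C(Dk 2, F)} {e : F} (h : ∀ x ∈ bdk 2, Ψ x = e) (hF : IsFund 2 zeta2) :
    bd 1 (push Ψ 2 zeta2) = 0 := by
  have h5 : bd 1 zeta2 ∈ Con (bdk 2) 1 := hF.cyc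
  rw [push_bd, YD.push_wt h h5, PR.wt_bd]
  have h6 : PR.wt 2 zeta2 = 0 := by
    rw [zeta2, map_sub, PR.wt_single, PR.wt_single, sub_self]
  rw [h6, mul_zero, zero_smul]

theorem fund2 : IsFund 2 zeta2 := (FM.main PR.main CC.main1 CL.main).2.2.2

theorem sphModel (hq : IsQuotientCoveringMap q G) {C : Set W} (hC : IsClosed C)
    {P : ∀ n, Submodule (ZG G) (SC G n F)}
    (hP : IsFinModel (fun n => SC G n F) (fun n => SC.d G n F) (Step.SA hq C) P)
    {B : Set W} {t : ℕ} (hB : Sph C B t) : IsClosed B ∧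
    ∃ Z : Submodule (ZG G) (SC G 2 F), Nonempty (Z ≃ₗ[ZG G] (Fin t → ZG G)) ∧
    (∀ z ∈ Z, SC.d G 1 F z = 0) ∧ Disjoint (P 2) Z ∧
    IsFinModel (fun n => SC G n F) (fun n => SC.d G n F) (Step.SA hq B)
      (Function.update P 2 (P 2 ⊔ Z)) := by
  induction hB with
  | base =>
    refine ⟨hC, ⊥, ⟨LinearEquiv.ofSubsingleton _ _⟩, fun z hz => ?_, disjoint_bot_right, ?_⟩
    · rw [(Submodule.mem_bot _).1 hz, map_zero]
    · rw [sup_bot_eq, Function.update_eq_self]
      exact hP
  | @cell A' B' t' Φ a _ ha hΦ h ih =>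
    obtain ⟨hA, Z, hZ, hZd, hdis, hM⟩ := ih
    refine ⟨?_, ?_⟩
    · rw [h.eq]
      exact hA.union (isCompact_range Φ.continuous).isClosed
    obtain ⟨Ψ, hΨ⟩ := MX.exists_lift hq Φ
    obtain ⟨e, he⟩ := lift_const hq hΦ hΨ
    set z : SC G 2 F := SC.mk G (push Ψ 2 zeta2) with hz
    have hdz : SC.d G 1 F z = 0 := SC.un_inj (bd_zero he fund2)
    obtain ⟨h1, h2⟩ := Step.step MS.main CC.main2 CL.main hq Ψ hA h hΨ fund2 hM.toIsModel z
      (by rw [hz, SC.un_mk, sub_self]; exact Submodule.zero_mem _)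
      (by
        change SC.d G 1 F z ∈ _
        rw [hdz]
        exact Submodule.zero_mem _)
    have hle : P 2 ⊔ Z ≤ Step.SA hq A' 2 := by
      have h3 := hM.le 2
      rwa [Function.update_self] at h3
    have e1 : Function.update (Function.update P 2 (P 2 ⊔ Z)) 2
        (Function.update P 2 (P 2 ⊔ Z) 2 ⊔ Submodule.span (ZG G) {z}) =
        Function.update P 2 (P 2 ⊔ (Z ⊔ Submodule.span (ZG G) {z})) := by
      rw [Function.update_idem, Function.update_self, sup_assoc]
    rw [e1] at h1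
    refine ⟨Z ⊔ Submodule.span (ZG G) {z}, rank_sup (le_sup_right.trans hle) h2 hZ, ?_,
      disj_sup (le_sup_left.trans hle) (le_sup_right.trans hle) h2 hdis,
      { toIsModel := h1, free := fun k => ?_, fin := fun k => ?_, bdd := ?_ }⟩
    · intro x hx
      obtain ⟨y, hy, w, hw, rfl⟩ := Submodule.mem_sup.1 hx
      obtain ⟨r, rfl⟩ := Submodule.mem_span_singleton.1 hw
      rw [map_add, map_smul, hZd y hy, hdz, smul_zero, add_zero]
    · by_cases hk : k = 2
      · subst hk
        rw [Function.update_self, ← sup_assoc]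
        refine MX.free_sup hle h2 ?_
        have h3 := hM.free 2
        rwa [Function.update_self] at h3
      · have h3 := hM.free k
        rw [Function.update_of_ne hk] at h3 ⊢
        exact h3
    · by_cases hk : k = 2
      · subst hk
        rw [Function.update_self, ← sup_assoc]
        refine MX.finite_sup z ?_
        have h3 := hM.fin 2
        rwa [Function.update_self] at h3
      · have h3 := hM.fin k
        rw [Function.update_of_ne hk] at h3 ⊢
        exact h3
    · obtain ⟨N, hN⟩ := hM.bdd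
      refine ⟨max N 2, fun k hk => ?_⟩
      have h3 := hN k (lt_of_le_of_lt (le_max_left N 2) hk)
      rw [Function.update_of_ne (by have := le_max_right N 2; omega)] at h3 ⊢
      exact h3

/-- ROW TW4 -/
theorem main : SpecChW := by
  intro G W F _ _ _ _ _ _ q hq C t hC hB P hP
  obtain ⟨-, Z, hZ, hZd, hdis, hM⟩ := sphModel hq hC hP hB
  refine ⟨Z, hZ, hZd, hdis, ?_⟩
  have e : (Step.SA hq univ : ∀ n, Submodule (ZG G) (SC G n F)) = fun _ => ⊤ := by
    funext n
    rw [eq_top_iff]
    intro x _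
    rw [Step.mem_SA, preimage_univ]
    exact PR.Con_univ _
  rw [← e]
  exact hM

end Vale.Agent.P246.R2.H247W
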